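import Mathlib
import Vale.Agent.P089.KK
import Vale.Agent.P089.MainB

namespace Vale.Agent.Results.P089.Assembly

open Vale.Agent.P089

/-- The Baum-Connes assembly map is not surjective for some countable group. -/
theorem result (H : Type) [NormedAddCommGroup H] [InnerProductSpace ℂ H] [CompleteSpace H]
    (b : HilbertBasis ℕ ℂ H) : ∃ (G : Type) (_ : Group G) (_ : Countable G),
    ∀ (E : Type) [NormedAddCommGroup E] [InnerProductSpace ℂ E] [CompleteSpace E]
      (J : G → H →ₗᵢ[ℂ] E), IsHilbertSum ℂ (fun _ : G => H) J →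
      ∃ a : Cyc J, a.Q = 0 ∧ NotAssembled J (K0.mk a) :=
  mainB H b

end Vale.Agent.Results.P089.Assembly
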