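import Mathlib
import Vale.Agent.P089.MainA2

namespace Vale.Agent.Results.P089.IrrTrace

/-- `p` is a projection in the reduced group C*-algebra with irrational canonical trace. -/
structure IrrationalProjection {G H : Type} [Group G] [NormedAddCommGroup H]
    [InnerProductSpace ℂ H] [CompleteSpace H] (δ : HilbertBasis G ℂ H) (p : H →L[ℂ] H) :
    Prop where
  mem : p ∈ closure (Submodule.span ℂ {T : H →L[ℂ] H | ∃ g : G, ∀ h : G, T (δ h) = δ (g * h)} :
    Set (H →L[ℂ] H))
  idem : p * p = p
  selfAdjoint : star p = p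
  trace : ∃ t : ℝ, Irrational t ∧ inner ℂ (δ 1) (p (δ 1)) = (t : ℂ)

/-- A countable group whose reduced C*-algebra contains a projection of irrational trace. -/
theorem result : ∃ (G : Type) (_ : Group G) (_ : Countable G) (H : Type)
    (_ : NormedAddCommGroup H) (_ : InnerProductSpace ℂ H) (_ : CompleteSpace H)
    (δ : HilbertBasis G ℂ H) (p : H →L[ℂ] H), IrrationalProjection δ p := by
  obtain ⟨G, a, b, H, c, d, e, δ, p, h1, h2, h3, h4⟩ := Vale.Agent.P089.irrational_trace_basis
  exact ⟨G, a, b, H, c, d, e, δ, p, h1, h2, h3, h4⟩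

end Vale.Agent.Results.P089.IrrTrace
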